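import Vale.Agent.P069.Norm

namespace Vale.Agent.P069

open Finset

variable {T : Type} [Forest T]

/-- `U` is an upper part of the set of strict ancestors of `c`. -/
def Tail (c : T) (U : Finset T) : Prop :=
  (∀ u ∈ U, u < c) ∧ ∀ u ∈ U, ∀ v, u ≤ v → v < c → v ∈ U

lemma Tail.total {c : T} {U V : Finset T} (hU : Tail c U) (hV : Tail c V) : U ⊆ V ∨ V ⊆ U := by
  by_contra h
  rw [not_or, not_subset, not_subset] at h
  obtain ⟨⟨u, hu, hu'⟩, ⟨v, hv, hv'⟩⟩ := h
  rcases Forest.tree (hU.1 u hu).le (hV.1 v hv).le with h | h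
  · exact hv' (hU.2 u hu v h (hV.1 v hv))
  · exact hu' (hV.2 v hv u h (hU.1 u hu))

lemma Tail.isSeg {c : T} {U : Finset T} (hU : Tail c U) : IsSeg U := by
  constructor
  · intro a ha b hb
    exact Forest.tree (hU.1 a ha).le (hU.1 b hb).le
  · intro a ha b hb x hax hxb
    exact hU.2 a ha x hax (lt_of_le_of_lt hxb (hU.1 b hb))

lemma Tail.isSeg_sdiff [DecidableEq T] {c : T} {U V : Finset T} (hU : Tail c U)
    (hV : Tail c V) : IsSeg (U \ V) := by
  constructor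
  · intro a ha b hb
    exact hU.isSeg.1 a (mem_sdiff.1 ha).1 b (mem_sdiff.1 hb).1
  · intro a ha b hb x hax hxb
    rw [mem_sdiff] at *
    refine ⟨hU.isSeg.2 a ha.1 b hb.1 x hax hxb, fun hx => hb.2 ?_⟩
    exact hV.2 x hx b hxb (hU.1 b hb.1)

lemma exists_sign (f : T →₀ ℝ) (c : T) (τ : ℝ) :
    ∃ σ : ℝ, (σ = 1 ∨ σ = -1) ∧ ∀ U : Finset T, Tail c U → τ ≤ |∑ t ∈ U, f t| →
      ∃ V : Finset T, V ⊆ U ∧ Tail c V ∧ τ ≤ σ * ∑ t ∈ V, f t := by
  classical
  by_cases h : ∃ n, ∃ U : Finset T, U.card = n ∧ Tail c U ∧ τ ≤ |∑ t ∈ U, f t|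
  · obtain ⟨V, hVc, hV, hVτ⟩ := Nat.find_spec h
    have hmin : ∀ U : Finset T, Tail c U → τ ≤ |∑ t ∈ U, f t| → V ⊆ U := by
      intro U hU hUτ
      have h1 : Nat.find h ≤ U.card := Nat.find_min' h ⟨U, rfl, hU, hUτ⟩
      rcases hV.total hU with h2 | h2
      · exact h2
      · rw [eq_of_subset_of_card_le h2 (by omega)]
    rcases le_or_gt 0 (∑ t ∈ V, f t) with h0 | h0
    · refine ⟨1, Or.inl rfl, fun U hU hUτ => ⟨V, hmin U hU hUτ, hV, ?_⟩⟩
      rw [abs_of_nonneg h0] at hVτ; linarith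
    · refine ⟨-1, Or.inr rfl, fun U hU hUτ => ⟨V, hmin U hU hUτ, hV, ?_⟩⟩
      rw [abs_of_neg h0] at hVτ; linarith
  · refine ⟨1, Or.inl rfl, fun U hU hUτ => ?_⟩
    exact absurd ⟨U.card, U, rfl, hU, hUτ⟩ h

lemma arith_small {v c γ d : ℝ} (hc : 0 ≤ c) (hγ : 0 ≤ γ) (hd : |d| ≤ 2 * γ)
    (hv : |v| ≤ 2 * c * γ) : (v + c * d) ^ 2 ≤ 0 ^ 2 + v ^ 2 + 8 * c ^ 2 * γ ^ 2 + c ^ 2 * d ^ 2 := by
  have h1 : v * d ≤ (2 * c * γ) * (2 * γ) := by
    calc v * d ≤ |v * d| := le_abs_self _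
      _ = |v| * |d| := abs_mul _ _
      _ ≤ (2 * c * γ) * (2 * γ) := mul_le_mul hv hd (abs_nonneg _) (by positivity)
  nlinarith [mul_le_mul_of_nonneg_left h1 hc]

lemma arith_good {v c γ d : ℝ} (hc : 0 ≤ c) (hvd : v * d ≤ 0) :
    (v + c * d) ^ 2 ≤ 0 ^ 2 + v ^ 2 + 8 * c ^ 2 * γ ^ 2 + c ^ 2 * d ^ 2 := by
  nlinarith [mul_le_mul_of_nonneg_left hvd hc, sq_nonneg (c * γ)]

lemma arith_split {v p c γ d σ : ℝ} (hc : 0 ≤ c) (hσ : σ = 1 ∨ σ = -1) (hd : |d| ≤ 2 * γ)
    (hv : σ * v ≤ 0) (hp : 2 * c * γ ≤ σ * p) :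
    (v + c * d) ^ 2 ≤ p ^ 2 + (v - p) ^ 2 + 8 * c ^ 2 * γ ^ 2 + c ^ 2 * d ^ 2 := by
  have habs : |v| = -(σ * v) := by
    rcases hσ with rfl | rfl
    · rw [abs_of_nonpos (by linarith)]; ring
    · rw [abs_of_nonneg (by linarith)]; ring
  have h1 : v * d ≤ -(σ * v) * (2 * γ) := by
    calc v * d ≤ |v * d| := le_abs_self _
      _ = |v| * |d| := abs_mul _ _
      _ ≤ |v| * (2 * γ) := mul_le_mul_of_nonneg_left hd (abs_nonneg _)
      _ = _ := by rw [habs]
  have h2 : -(σ * v) * (2 * c * γ) ≤ -(σ * v) * (σ * p) :=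
    mul_le_mul_of_nonneg_left hp (by linarith)
  have h3 : -(σ * v) * (σ * p) = -(v * p) := by
    rcases hσ with rfl | rfl <;> ring
  nlinarith [mul_le_mul_of_nonneg_left h1 hc, sq_nonneg (c * γ), sq_nonneg p]

/-- Boundary nodes of a lower set. -/
def Bd (F : T → Prop) (c : T) : Prop := ¬ F c ∧ ∀ a, a < c → F a

lemma Bd.eq_of_le {F : T → Prop} {a b : T} (ha : Bd F a) (hb : Bd F b) (h : a ≤ b) : a = b := by
  by_contra hne
  exact ha.1 (hb.2 a (lt_of_le_of_ne h hne))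

lemma conv_ge (c : T) : Conv (fun t => c ≤ t) := fun _ _ _ ha _ hac _ => ha.trans hac

lemma conv_lower {F : T → Prop} (hF : ∀ a b, a ≤ b → F b → F a) : Conv F :=
  fun _ _ _ _ hb _ hcb => hF _ _ hcb hb

lemma conv_not_lower {F : T → Prop} (hF : ∀ a b, a ≤ b → F b → F a) : Conv (fun t => ¬ F t) :=
  fun _ _ _ ha _ hac _ hc => ha (hF _ _ hac hc)

open Classical in
lemma key_seg {F : T → Prop} (hF : ∀ a b, a ≤ b → F b → F a) (f g w : T →₀ ℝ) {c : ℝ}
    (hc : 0 ≤ c) (σ : T → ℝ) (hσ : ∀ b, σ b = 1 ∨ σ b = -1)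
    (hsign : ∀ b, ∀ U : Finset T, Tail b U →
      2 * c * N (g.filter fun t => b ≤ t) ≤ |∑ t ∈ U, f t| →
      ∃ V : Finset T, V ⊆ U ∧ Tail b V ∧ 2 * c * N (g.filter fun t => b ≤ t) ≤ σ b * ∑ t ∈ V, f t)
    (hw : ∀ b, w b = if Bd F b then -(σ b * N (g.filter fun t => b ≤ t)) else 0)
    {s : ℝ} (hs : s = 1 ∨ s = -1) (S : Finset T) (hS : IsSeg S) :
    ∃ V : Finset T, V ⊆ S.filter F ∧ IsSeg V ∧ IsSeg (S.filter F \ V) ∧
      ((∑ t ∈ S.filter F, f t) + c * ∑ t ∈ S.filter (fun t => ¬ F t), (w + s • g) t) ^ 2 ≤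
        (∑ t ∈ V, f t) ^ 2 + (∑ t ∈ S.filter F \ V, f t) ^ 2 + 8 * c ^ 2 * (∑ t ∈ S, w t ^ 2) +
          c ^ 2 * (∑ t ∈ S.filter (fun t => ¬ F t), (w + s • g) t) ^ 2 := by
  have hSF : IsSeg (S.filter F) := hS.filter (conv_lower hF)
  have hSO : IsSeg (S.filter fun t => ¬ F t) := hS.filter (conv_not_lower hF)
  have hW : 0 ≤ 8 * c ^ 2 * (∑ t ∈ S, w t ^ 2) :=
    mul_nonneg (by positivity) (sum_nonneg fun _ _ => sq_nonneg _)
  by_cases h1 : (S.filter F).Nonempty
  swap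
  · rw [not_nonempty_iff_eq_empty] at h1
    refine ⟨∅, empty_subset _, isSeg_empty, by simpa using hSF, ?_⟩
    rw [h1]
    simp only [sum_empty, sdiff_self, bot_eq_empty]
    nlinarith
  by_cases h2 : (S.filter fun t => ¬ F t).Nonempty
  swap
  · rw [not_nonempty_iff_eq_empty] at h2
    refine ⟨∅, empty_subset _, isSeg_empty, by simpa using hSF, ?_⟩
    rw [h2]
    simp only [sum_empty, sdiff_empty]
    nlinarith
  obtain ⟨b, hb, hbmin⟩ := hSO.exists_bot h2
  rw [mem_filter] at hb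
  have hlt : ∀ u ∈ S.filter F, u < b := by
    intro u hu
    rw [mem_filter] at hu
    rcases hS.1 u hu.1 b hb.1 with h | h
    · exact lt_of_le_of_ne h (fun h' => hb.2 (h' ▸ hu.2))
    · exact absurd (hF _ _ h hu.2) hb.2
  have htail : Tail b (S.filter F) := by
    refine ⟨hlt, fun u hu v huv hvb => ?_⟩
    have hvS : v ∈ S := hS.2 u (mem_filter.1 hu).1 b hb.1 v huv hvb.le
    refine mem_filter.2 ⟨hvS, ?_⟩
    by_contra hv
    exact absurd (hbmin v (mem_filter.2 ⟨hvS, hv⟩)) (not_le_of_gt hvb)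
  have hbd : Bd F b := by
    refine ⟨hb.2, fun a ha => ?_⟩
    obtain ⟨u, hu⟩ := h1
    rcases Forest.tree ha.le (hlt u hu).le with h | h
    · exact hF _ _ h (mem_filter.1 hu).2
    · exact (mem_filter.1 (htail.2 u hu a h ha)).2
  set γ := N (g.filter fun t => b ≤ t) with hγ
  have hγ0 : 0 ≤ γ := N_nonneg _
  have hwb : w b = -(σ b * γ) := by rw [hw, if_pos hbd]
  have hwsum : ∑ t ∈ S.filter (fun t => ¬ F t), w t = -(σ b * γ) := by
    rw [sum_eq_single b, hwb]
    · intro t ht htb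
      rw [hw, if_neg]
      intro hbt
      exact htb (hbd.eq_of_le hbt (hbmin t ht)).symm
    · intro h; exact absurd (mem_filter.2 hb) h
  have hgsum : |∑ t ∈ S.filter (fun t => ¬ F t), g t| ≤ γ := by
    have := abs_seg_le_N hSO (g.filter fun t => b ≤ t)
    rwa [sum_congr rfl (g := fun t => g t)] at this
    intro t ht
    rw [Finsupp.filter_apply, if_pos (hbmin t ht)]
  have hγw : γ ^ 2 ≤ ∑ t ∈ S, w t ^ 2 := by
    have h3 : w b ^ 2 = γ ^ 2 := by
      rw [hwb]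
      rcases hσ b with h | h <;> rw [h] <;> ring
    rw [← h3]
    exact single_le_sum (f := fun t => w t ^ 2) (fun _ _ => sq_nonneg _) hb.1
  set G := ∑ t ∈ S.filter (fun t => ¬ F t), g t with hG
  have hd : ∑ t ∈ S.filter (fun t => ¬ F t), (w + s • g) t = -(σ b * γ) + s * G := by
    simp only [Finsupp.add_apply, Finsupp.smul_apply, smul_eq_mul, sum_add_distrib, ← mul_sum]
    rw [hwsum]
  rw [hd]
  set d := -(σ b * γ) + s * G with hdd
  have hG' := abs_le.1 hgsum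
  have hdabs : |d| ≤ 2 * γ := by
    rw [abs_le]
    rcases hσ b with h | h <;> rcases hs with h' | h' <;> rw [hdd, h, h'] <;>
      constructor <;> linarith [hG'.1, hG'.2]
  have hσd : σ b * d ≤ 0 := by
    rcases hσ b with h | h <;> rcases hs with h' | h' <;> rw [hdd, h, h'] <;>
      linarith [hG'.1, hG'.2]
  have hmono : 8 * c ^ 2 * γ ^ 2 ≤ 8 * c ^ 2 * (∑ t ∈ S, w t ^ 2) :=
    mul_le_mul_of_nonneg_left hγw (by positivity)
  set v := ∑ t ∈ S.filter F, f t with hv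
  by_cases h3 : |v| ≤ 2 * c * γ
  · refine ⟨∅, empty_subset _, isSeg_empty, by simpa using hSF, ?_⟩
    have := arith_small hc hγ0 hdabs h3
    rw [sum_empty, sdiff_empty]
    linarith
  by_cases h4 : 0 ≤ σ b * v
  · refine ⟨∅, empty_subset _, isSeg_empty, by simpa using hSF, ?_⟩
    have h5 : v * d ≤ 0 := by
      have h6 : v * d = (σ b * v) * (σ b * d) := by
        rcases hσ b with h | h <;> rw [h] <;> ring
      rw [h6]
      exact mul_nonpos_of_nonneg_of_nonpos h4 hσd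
    have := arith_good (γ := γ) hc h5
    rw [sum_empty, sdiff_empty]
    linarith
  · obtain ⟨V, hVsub, hVt, hVτ⟩ := hsign b (S.filter F) htail (le_of_lt (not_le.1 h3))
    refine ⟨V, hVsub, hVt.isSeg, htail.isSeg_sdiff hVt, ?_⟩
    have := arith_split hc (hσ b) hdabs (le_of_lt (not_le.1 h4)) hVτ
    rw [sum_sdiff_eq_sub hVsub]
    linarith

/-- The key estimate. -/
theorem key {F : T → Prop} (hF : ∀ a b, a ≤ b → F b → F a) (f g : T →₀ ℝ)
    (hf : ∀ t, ¬ F t → f t = 0) (hg : ∀ t, F t → g t = 0) (hf1 : N f ≤ 1) (hg1 : N g ≤ 1)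
    {c : ℝ} (hc : 0 ≤ c) :
    ∃ w : T →₀ ℝ, (∀ t, F t → w t = 0) ∧ N w ≤ 1 ∧
      ∀ s : ℝ, (s = 1 ∨ s = -1) → Q (f + c • (w + s • g)) ≤ 1 + 12 * c ^ 2 := by
  classical
  choose σ hσ hsign using fun b => exists_sign f b (2 * c * N (g.filter fun t => b ≤ t))
  let w : T →₀ ℝ := Finsupp.onFinset (g.support.biUnion Forest.anc)
    (fun b => if Bd F b then -(σ b * N (g.filter fun t => b ≤ t)) else 0) (by
      intro b hb
      by_contra hnb
      apply hb
      have : g.filter (fun t => b ≤ t) = 0 := by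
        ext t
        rw [Finsupp.filter_apply]
        split_ifs with h
        · by_contra hgt
          exact hnb (mem_biUnion.2 ⟨t, Finsupp.mem_support_iff.2 hgt, Forest.mem_anc.2 h⟩)
        · rfl
      simp [this, N_zero])
  have hw : ∀ b, w b = if Bd F b then -(σ b * N (g.filter fun t => b ≤ t)) else 0 :=
    fun b => rfl
  have hwbd : ∀ b, w b ≠ 0 → Bd F b := by
    intro b hb
    by_contra h
    exact hb (by rw [hw, if_neg h])
  have hwF : ∀ t, F t → w t = 0 := by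
    intro t ht
    by_contra h
    exact (hwbd t h).1 ht
  have hQg : Q g ≤ 1 := by simpa using Q_le_of_N_le hg1
  have hQf : Q f ≤ 1 := by simpa using Q_le_of_N_le hf1
  have hl2 : l2 w ≤ 1 := by
    have h1 := sum_Q_filter_le w.support (fun b t => b ≤ t) (fun b _ => conv_ge b) (by
      intro i hi j hj t hit hjt
      have hi' := hwbd i (Finsupp.mem_support_iff.1 hi)
      have hj' := hwbd j (Finsupp.mem_support_iff.1 hj)
      rcases Forest.tree hit hjt with h | h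
      · exact hi'.eq_of_le hj' h
      · exact (hj'.eq_of_le hi' h).symm) g
    refine le_trans (le_of_eq ?_) (h1.trans hQg)
    unfold l2
    apply sum_congr rfl
    intro b hb
    rw [hw, if_pos (hwbd b (Finsupp.mem_support_iff.1 hb)), ← N_sq]
    rcases hσ b with h | h <;> rw [h] <;> ring
  have hNw : N w ≤ 1 := by
    apply N_le_of_Q_le zero_le_one
    refine le_trans (Q_le_of_antichain w ?_) (by simpa using hl2)
    intro a b ha hb hab
    exact (hwbd a ha).eq_of_le (hwbd b hb) hab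
  refine ⟨w, hwF, hNw, fun s hs => ?_⟩
  have hN2 : N (w + s • g) ≤ 2 := by
    have h1 := N_add_le w (s • g)
    have h2 := N_smul_le s g
    have h3 : |s| = 1 := by rcases hs with h | h <;> rw [h] <;> simp
    rw [h3] at h2
    linarith
  have hQ2 : Q (w + s • g) ≤ 4 := by
    have := Q_le_of_N_le hN2
    linarith
  apply Q_le
  intro P
  choose V hVsub hVseg hVseg' hV using fun S hS =>
    key_seg hF f g w hc σ hσ hsign hw hs S hS
  let V' : Finset T → Finset T := fun S => if h : IsSeg S then V S h else ∅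
  have hV' : ∀ S (h : IsSeg S), V' S = V S h := fun S h => dif_pos h
  have hsplit : ∀ S : Finset T, ∑ t ∈ S, (f + c • (w + s • g)) t =
      (∑ t ∈ S.filter F, f t) + c * ∑ t ∈ S.filter (fun t => ¬ F t), (w + s • g) t := by
    intro S
    rw [sum_filter, sum_filter, mul_sum, ← sum_add_distrib]
    apply sum_congr rfl
    intro t _
    by_cases h : F t
    · simp [h, hg t h, hwF t h]
    · simp [h, hf t h, mul_add]
  have hA : ∑ S ∈ P.1, ((∑ t ∈ V' S, f t) ^ 2 + (∑ t ∈ S.filter F \ V' S, f t) ^ 2) ≤ 1 := by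
    have hsub : ∀ p : Finset T × Bool, p.1 ∈ P.1 →
        (if p.2 then V' p.1 else p.1.filter F \ V' p.1) ⊆ p.1 := by
      intro p hp
      split_ifs
      · rw [hV' _ (P.2.1 _ hp)]
        exact (hVsub _ _).trans (filter_subset _ _)
      · exact sdiff_subset.trans (filter_subset _ _)
    have h1 := sum_sq_le_Q (P.1 ×ˢ (univ : Finset Bool))
      (fun p => if p.2 then V' p.1 else p.1.filter F \ V' p.1) (by
        intro p hp
        have hp' := P.2.1 _ (mem_product.1 hp).1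
        split_ifs
        · rw [hV' _ hp']; exact hVseg _ _
        · rw [hV' _ hp']; exact hVseg' _ _) (by
        rintro ⟨S, i⟩ hp ⟨U, j⟩ hq hpq
        have hp' := (mem_product.1 (mem_coe.1 hp)).1
        have hq' := (mem_product.1 (mem_coe.1 hq)).1
        by_cases hSU : S = U
        · subst hSU
          have hij : i ≠ j := fun h => hpq (by rw [h])
          cases i <;> cases j
          · exact absurd rfl hij
          · simp [Function.onFun, sdiff_disjoint]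
          · simp [Function.onFun, disjoint_sdiff]
          · exact absurd rfl hij
        · exact Disjoint.mono (hsub _ hp') (hsub _ hq') (P.2.2 hp' hq' hSU)) f
    rw [sum_product] at h1
    refine le_trans (le_of_eq ?_) (h1.trans hQf)
    apply sum_congr rfl
    intro S _
    simp
  have hB : ∑ S ∈ P.1, ∑ t ∈ S, w t ^ 2 ≤ 1 := (sum_sum_le_l2 P.1 id P.2.2 w).trans hl2
  have hC : ∑ S ∈ P.1, (∑ t ∈ S.filter (fun t => ¬ F t), (w + s • g) t) ^ 2 ≤ 4 := by
    refine le_trans (sum_sq_le_Q P.1 (fun S => S.filter (fun t => ¬ F t)) ?_ ?_ _) hQ2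
    · intro S hS
      exact (P.2.1 S hS).filter (conv_not_lower hF)
    · intro S hS U hU hSU
      exact Disjoint.mono (filter_subset _ _) (filter_subset _ _) (P.2.2 hS hU hSU)
  unfold val
  calc ∑ S ∈ P.1, (∑ t ∈ S, (f + c • (w + s • g)) t) ^ 2
      ≤ ∑ S ∈ P.1, (((∑ t ∈ V' S, f t) ^ 2 + (∑ t ∈ S.filter F \ V' S, f t) ^ 2) +
        8 * c ^ 2 * (∑ t ∈ S, w t ^ 2) +
          c ^ 2 * (∑ t ∈ S.filter (fun t => ¬ F t), (w + s • g) t) ^ 2) := by
        apply sum_le_sum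
        intro S hS
        rw [hsplit, hV' S (P.2.1 S hS)]
        exact hV S (P.2.1 S hS)
    _ ≤ 1 + 12 * c ^ 2 := by
        rw [sum_add_distrib, sum_add_distrib, ← mul_sum, ← mul_sum]
        have h1 := mul_le_mul_of_nonneg_left hB (show 0 ≤ 8 * c ^ 2 by positivity)
        have h2 := mul_le_mul_of_nonneg_left hC (show 0 ≤ c ^ 2 by positivity)
        linarith

end Vale.Agent.P069
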