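import Vale.Agent.P069.Norm

namespace Vale.Agent.P069

open Finset

/-- Gliding hump lemma. -/
lemma hump {G ι : Type*} [DecidableEq ι] (supp : G → Finset ι) (ψ : G → ℝ) (M : ℝ)
    (h : ∀ g : ℕ → G, (∀ i j, i ≠ j → Disjoint (supp (g i)) (supp (g j))) →
      ∀ m, ∑ i ∈ range m, ψ (g i) ^ 2 ≤ M) {ε : ℝ} (hε : 0 < ε) :
    ∃ A : Finset ι, ∀ g, Disjoint (supp g) A → |ψ g| ≤ ε := by
  by_contra hcon
  push Not at hcon
  choose pick hpick hpick' using hcon
  let A : ℕ → Finset ι := fun n => Nat.rec ∅ (fun _ B => B ∪ supp (pick B)) n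
  have hA : ∀ n, A (n + 1) = A n ∪ supp (pick (A n)) := fun n => rfl
  have hmono : Monotone A := monotone_nat_of_le_succ fun n => by
    rw [hA]; exact subset_union_left
  have hlt : ∀ i j, i < j → Disjoint (supp (pick (A i))) (supp (pick (A j))) := by
    intro i j hij
    have h1 : supp (pick (A i)) ⊆ A j := by
      refine Subset.trans ?_ (hmono (Nat.succ_le_of_lt hij))
      rw [hA]; exact subset_union_right
    exact (Disjoint.mono_right h1 (hpick (A j))).symm
  have h2 := h (fun n => pick (A n)) (by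
    intro i j hij
    rcases lt_or_gt_of_ne hij with h | h
    · exact hlt i j h
    · exact (hlt j i h).symm)
  obtain ⟨m, hm⟩ := exists_nat_gt (M / ε ^ 2)
  have h3 : ∑ i ∈ range m, ε ^ 2 ≤ ∑ i ∈ range m, ψ (pick (A i)) ^ 2 := by
    apply sum_le_sum
    intro i _
    rw [← sq_abs (ψ _)]
    exact pow_le_pow_left₀ hε.le (hpick' _).le 2
  rw [sum_const, card_range, nsmul_eq_mul] at h3
  rw [div_lt_iff₀ (by positivity)] at hm
  linarith [h2 m]

variable {T : Type} [Forest T]

lemma bessel {V : Type*} [AddCommGroup V] [Module ℝ V] (φ : V →ₗ[ℝ] ℝ) (ν : V → ℝ)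
    (hν0 : ∀ f, 0 ≤ ν f) {M C : ℝ} (hφ : ∀ f, |φ f| ≤ M * ν f) (hC : 0 ≤ C)
    (g : ℕ → V) (m : ℕ)
    (h : ∀ a : ℕ → ℝ, ν (∑ i ∈ range m, a i • g i) ^ 2 ≤ C * ∑ i ∈ range m, a i ^ 2) :
    ∑ i ∈ range m, φ (g i) ^ 2 ≤ M ^ 2 * C := by
  set s := ∑ i ∈ range m, φ (g i) ^ 2 with hs
  have hs0 : 0 ≤ s := sum_nonneg fun _ _ => sq_nonneg _
  have h1 := hφ (∑ i ∈ range m, φ (g i) • g i)
  have h2 := h fun i => φ (g i)
  have h3 : φ (∑ i ∈ range m, φ (g i) • g i) = s := by
    rw [map_sum, hs]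
    apply sum_congr rfl
    intro i _
    rw [map_smul, smul_eq_mul, sq]
  rw [h3, abs_of_nonneg hs0] at h1
  have h4 : s ^ 2 ≤ M ^ 2 * (C * s) := by
    calc s ^ 2 ≤ (M * ν (∑ i ∈ range m, φ (g i) • g i)) ^ 2 := pow_le_pow_left₀ hs0 h1 2
      _ = M ^ 2 * ν (∑ i ∈ range m, φ (g i) • g i) ^ 2 := mul_pow _ _ _
      _ ≤ M ^ 2 * (C * s) := mul_le_mul_of_nonneg_left h2 (sq_nonneg _)
  rcases hs0.eq_or_lt with h0 | h0
  · rw [← h0]; positivity
  · have := hν0 0
    nlinarith

omit [Forest T] in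
lemma l2_smul (a : ℝ) (f : T →₀ ℝ) : l2 (a • f) = a ^ 2 * l2 f := by
  rw [l2_eq_of_subset (a • f) Finsupp.support_smul, l2, mul_sum]
  apply sum_congr rfl
  intro t _
  simp [mul_pow]

omit [Forest T] in
lemma l2_sum {ι : Type*} (s : Finset ι) (g : ι → T →₀ ℝ)
    (hd : ∀ i ∈ s, ∀ j ∈ s, i ≠ j → Disjoint (g i).support (g j).support) :
    l2 (∑ i ∈ s, g i) = ∑ i ∈ s, l2 (g i) := by
  classical
  set G := s.biUnion fun i => (g i).support with hG
  rw [l2_eq_of_subset _ (G := G) Finsupp.support_finsetSum]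
  rw [sum_congr rfl (g := fun i => ∑ t ∈ G, g i t ^ 2)
    (fun i hi => l2_eq_of_subset _ (subset_biUnion_of_mem (fun i => (g i).support) hi))]
  rw [sum_comm]
  apply sum_congr rfl
  intro t _
  rw [Finsupp.finsetSum_apply, sq, sum_mul_sum]
  apply sum_congr rfl
  intro i hi
  rw [sum_eq_single i, sq]
  · intro j hj hji
    by_contra hne
    rw [mul_eq_zero, not_or] at hne
    exact disjoint_left.1 (hd i hi j hj hji.symm) (Finsupp.mem_support_iff.2 hne.1)
      (Finsupp.mem_support_iff.2 hne.2)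
  · intro h; exact absurd hi h

lemma csupp_smul (a : ℝ) (f : T →₀ ℝ) : csupp (a • f) ⊆ csupp f :=
  image_subset_image Finsupp.support_smul

lemma csupp_subset {f : T →₀ ℝ} {G : Finset ℕ} (h : ∀ t, f t ≠ 0 → Forest.comp t ∈ G) :
    csupp f ⊆ G := by
  intro k hk
  obtain ⟨t, ht, rfl⟩ := mem_image.1 hk
  exact h t (Finsupp.mem_support_iff.1 ht)

open Classical in
/-- The abstract tail lemma. -/
lemma tail_small (ν : (T →₀ ℝ) → ℝ) (hν0 : ∀ f, 0 ≤ ν f)
    (hνsmul : ∀ (a : ℝ) f, ν (a • f) ≤ |a| * ν f)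
    (P1 : ∀ (G : Finset ℕ) (f : T →₀ ℝ), ν (f.filter fun t => Forest.comp t ∉ G) ≤ ν f)
    (P2 : ∀ (s : Finset ℕ) (g : ℕ → T →₀ ℝ),
      (s : Set ℕ).PairwiseDisjoint (fun i => csupp (g i)) →
        ν (∑ i ∈ s, g i) ^ 2 ≤ ∑ i ∈ s, ν (g i) ^ 2)
    (P3 : ∀ G : Finset ℕ, ∃ C : ℝ, 0 < C ∧
      (∀ f : T →₀ ℝ, l2 (f.filter fun t => Forest.comp t ∈ G) ≤ C * ν f ^ 2) ∧
      ∀ f : T →₀ ℝ, csupp f ⊆ G → ν f ^ 2 ≤ C * l2 f)
    (φ : (T →₀ ℝ) →ₗ[ℝ] ℝ) {M : ℝ} (hφ : ∀ f, |φ f| ≤ M * ν f) {ε : ℝ} (hε : 0 < ε) :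
    ∃ F : Finset T, ∀ f : T →₀ ℝ, |φ (f.filter fun t => t ∉ F)| ≤ ε * ν f := by
  have hε2 : 0 < ε / 2 := by positivity
  obtain ⟨G, hG⟩ := hump (G := {g : T →₀ ℝ // ν g ≤ 1}) (fun g => csupp g.1) (fun g => φ g.1)
    (M ^ 2 * 1) (by
      intro g hg m
      apply bessel φ ν hν0 hφ zero_le_one (fun i => (g i).1) m
      intro a
      refine le_trans (P2 (range m) (fun i => a i • (g i).1) ?_) ?_
      · intro i _ j _ hij
        exact Disjoint.mono (csupp_smul _ _) (csupp_smul _ _) (hg i j hij)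
      · rw [one_mul]
        apply sum_le_sum
        intro i _
        rw [← sq_abs (a i)]
        apply pow_le_pow_left₀ (hν0 _)
        refine le_trans (hνsmul _ _) ?_
        exact mul_le_of_le_one_right (abs_nonneg _) (g i).2) hε2
  obtain ⟨C, hC, hC1, hC2⟩ := P3 G
  obtain ⟨F₀, hF₀⟩ := hump (G := {g : T →₀ ℝ // csupp g ⊆ G ∧ l2 g ≤ C}) (fun g => g.1.support)
    (fun g => φ g.1) (M ^ 2 * (C * C)) (by
      intro g hg m
      apply bessel φ ν hν0 hφ (by positivity) (fun i => (g i).1) m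
      intro a
      refine le_trans (hC2 _ ?_) ?_
      · apply csupp_subset
        intro t ht
        rw [Finsupp.finsetSum_apply] at ht
        obtain ⟨i, _, hi⟩ := exists_ne_zero_of_sum_ne_zero ht
        exact (g i).2.1 (csupp_smul _ _ (comp_mem_csupp hi))
      · rw [l2_sum, mul_assoc]
        · apply mul_le_mul_of_nonneg_left _ hC.le
          rw [mul_sum]
          apply sum_le_sum
          intro i _
          rw [l2_smul, mul_comm]
          exact mul_le_mul_of_nonneg_right (g i).2.2 (sq_nonneg _)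
        · intro i _ j _ hij
          exact Disjoint.mono Finsupp.support_smul Finsupp.support_smul (hg i j hij)) hε2
  set F := F₀.filter fun t => Forest.comp t ∈ G with hF
  have hmain : ∀ f : T →₀ ℝ, ν f ≤ 1 → |φ (f.filter fun t => t ∉ F)| ≤ ε := by
    intro f hf
    have hsplit : f.filter (fun t => t ∉ F) = f.filter (fun t => Forest.comp t ∉ G) +
        f.filter (fun t => Forest.comp t ∈ G ∧ t ∉ F₀) := by
      ext t
      simp only [Finsupp.filter_apply, Finsupp.add_apply, hF, mem_filter]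
      by_cases h1 : Forest.comp t ∈ G <;> by_cases h2 : t ∈ F₀ <;> simp [h1, h2]
    have h1 := hG ⟨f.filter (fun t => Forest.comp t ∉ G), (P1 G f).trans hf⟩ (by
      rw [disjoint_left]
      intro k hk hkG
      obtain ⟨t, ht, rfl⟩ := mem_image.1 hk
      simp only [Finsupp.support_filter, mem_filter] at ht
      exact ht.2 hkG)
    have h2 := hF₀ ⟨f.filter (fun t => Forest.comp t ∈ G ∧ t ∉ F₀), by
      apply csupp_subset
      intro t ht
      rw [Finsupp.filter_apply] at ht
      by_contra h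
      simp [h] at ht, by
      have h3 : l2 (f.filter (fun t => Forest.comp t ∈ G ∧ t ∉ F₀)) ≤
          l2 (f.filter fun t => Forest.comp t ∈ G) := by
        refine le_trans (le_of_eq ?_) (sum_sq_le_l2 _
          (f.filter (fun t => Forest.comp t ∈ G ∧ t ∉ F₀)).support)
        unfold l2
        apply sum_congr rfl
        intro t ht
        simp only [Finsupp.support_filter, mem_filter] at ht
        simp [ht.2.1, ht.2.2]
      have h4 : ν f ^ 2 ≤ 1 := by
        have := hν0 f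
        nlinarith
      have h5 := hC1 f
      nlinarith⟩ (by
      rw [disjoint_left]
      intro t ht htF
      simp only [Finsupp.support_filter, mem_filter] at ht
      exact ht.2.2 htF)
    rw [hsplit, map_add]
    have h3 := abs_add_le (φ (f.filter (fun t => Forest.comp t ∉ G)))
      (φ (f.filter (fun t => Forest.comp t ∈ G ∧ t ∉ F₀)))
    simp only at h1 h2
    linarith
  refine ⟨F, fun f => ?_⟩
  apply le_of_forall_pos_le_add
  intro δ hδ
  set r := ν f + δ / ε with hr
  have hr0 : 0 < r := by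
    have := hν0 f
    positivity
  have h1 := hmain (r⁻¹ • f) (by
    refine le_trans (hνsmul _ _) ?_
    rw [abs_of_pos (inv_pos.2 hr0), inv_mul_le_iff₀ hr0, mul_one, hr]
    have : 0 < δ / ε := by positivity
    linarith)
  rw [Finsupp.filter_smul, map_smul, smul_eq_mul, abs_mul, abs_of_pos (inv_pos.2 hr0),
    inv_mul_le_iff₀ hr0] at h1
  refine h1.trans (le_of_eq ?_)
  rw [hr]
  field_simp

/-- Finitely supported functions with the James tree norm. -/
def JT (T : Type) : Type := T →₀ ℝ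

noncomputable instance : AddCommGroup (JT T) := inferInstanceAs (AddCommGroup (T →₀ ℝ))

noncomputable instance : Module ℝ (JT T) := inferInstanceAs (Module ℝ (T →₀ ℝ))

/-- The identification with finitely supported functions. -/
noncomputable def toJT : (T →₀ ℝ) ≃ₗ[ℝ] JT T := LinearEquiv.refl ℝ (T →₀ ℝ)

noncomputable instance : NormedAddCommGroup (JT T) :=
  AddGroupNorm.toNormedAddCommGroup
    { toFun := fun f => N (toJT.symm f)
      map_zero' := N_zero
      add_le' := fun f g => N_add_le (toJT.symm f) (toJT.symm g)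
      neg' := fun f => N_neg (toJT.symm f)
      eq_zero_of_map_eq_zero' := fun _ h => eq_zero_of_N h }

lemma norm_toJT (f : T →₀ ℝ) : ‖toJT f‖ = N f := rfl

noncomputable instance : NormedSpace ℝ (JT T) :=
  ⟨fun c f => N_smul_le c (toJT.symm f)⟩

/-- The space: the dual of `JT T`. -/
abbrev XT (T : Type) [Forest T] : Type := StrongDual ℝ (JT T)

/-- Evaluation of a functional at a finitely supported function. -/
noncomputable def ev (x : XT T) : (T →₀ ℝ) →ₗ[ℝ] ℝ := x.toLinearMap ∘ₗ toJT.toLinearMap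

lemma ev_apply (x : XT T) (f : T →₀ ℝ) : ev x f = x (toJT f) := rfl

lemma ev_add (x y : XT T) (f : T →₀ ℝ) : ev (x + y) f = ev x f + ev y f := rfl

lemma ev_sub (x y : XT T) (f : T →₀ ℝ) : ev (x - y) f = ev x f - ev y f := rfl

lemma ev_smul (a : ℝ) (x : XT T) (f : T →₀ ℝ) : ev (a • x) f = a * ev x f := rfl

lemma abs_ev_le (x : XT T) (f : T →₀ ℝ) : |ev x f| ≤ ‖x‖ * N f := x.le_opNorm (toJT f)

lemma norm_le_of_ev {x : XT T} {M : ℝ} (hM : 0 ≤ M) (h : ∀ f, |ev x f| ≤ M * N f) : ‖x‖ ≤ M :=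
  x.opNorm_le_bound hM fun f => h (toJT.symm f)

lemma exists_ev_gt (x : XT T) {r : ℝ} (hr : r < ‖x‖) : ∃ f, N f ≤ 1 ∧ r < ev x f := by
  obtain ⟨f, hf, hf'⟩ := x.exists_lt_apply_of_lt_opNorm hr
  rcases le_or_gt 0 (x f) with h | h
  · refine ⟨toJT.symm f, hf.le, ?_⟩
    rw [Real.norm_eq_abs, abs_of_nonneg h] at hf'
    exact hf'
  · refine ⟨-toJT.symm f, by rw [N_neg]; exact hf.le, ?_⟩
    rw [Real.norm_eq_abs, abs_of_neg h] at hf'
    rw [map_neg]
    exact hf'

lemma ev_ext {x y : XT T} (h : ∀ f, ev x f = ev y f) : x = y :=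
  ContinuousLinearMap.ext fun f => h (toJT.symm f)

/-- The coordinate functionals. -/
noncomputable def coord (t : T) : XT T :=
  LinearMap.mkContinuous (Finsupp.lapply t ∘ₗ toJT.symm.toLinearMap) 1 fun f => by
    have := abs_seg_le_N (isSeg_singleton t) (toJT.symm f)
    rw [sum_singleton] at this
    rw [one_mul]
    exact this

lemma ev_coord (t : T) (f : T →₀ ℝ) : ev (coord t) f = f t := rfl

/-- Finite combinations of coordinate functionals. -/
noncomputable def E : (T →₀ ℝ) →ₗ[ℝ] XT T := Finsupp.linearCombination ℝ coord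

lemma E_eq_sum {a : T →₀ ℝ} {G : Finset T} (h : a.support ⊆ G) :
    E a = ∑ t ∈ G, a t • coord t := by
  rw [E, Finsupp.linearCombination_apply, Finsupp.sum_of_support_subset _ h]
  intro t _
  simp

lemma ev_sum {ι : Type*} (s : Finset ι) (x : ι → XT T) (f : T →₀ ℝ) :
    ev (∑ i ∈ s, x i) f = ∑ i ∈ s, ev (x i) f := by
  simp only [ev_apply]
  rw [_root_.sum_apply]

lemma ev_E {a : T →₀ ℝ} {G : Finset T} (h : a.support ⊆ G) (f : T →₀ ℝ) :
    ev (E a) f = ∑ t ∈ G, a t * f t := by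
  rw [E_eq_sum h, ev_sum]
  rfl

lemma ev_E_filter (a f : T →₀ ℝ) (A : T → Prop) [DecidablePred A] :
    ev (E (a.filter A)) f = ev (E a) (f.filter A) := by
  rw [ev_E (G := a.support) (by rw [Finsupp.support_filter]; exact filter_subset _ _),
    ev_E (Subset.refl _)]
  apply sum_congr rfl
  intro t _
  simp only [Finsupp.filter_apply]
  split_ifs <;> simp

lemma ev_E_self (a : T →₀ ℝ) : ev (E a) a = l2 a := by
  rw [ev_E (Subset.refl _), l2]
  simp only [sq]

lemma norm_E_le (a : T →₀ ℝ) : ‖E a‖ ≤ √(l2 a) := by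
  apply norm_le_of_ev (Real.sqrt_nonneg _)
  intro f
  rw [ev_E (Subset.refl _), N, ← Real.sqrt_mul (l2_nonneg a)]
  apply Real.abs_le_sqrt
  refine le_trans (sum_mul_sq_le_sq_mul_sq _ _ _) ?_
  exact mul_le_mul_of_nonneg_left ((sum_sq_le_l2 f _).trans (l2_le_Q f)) (l2_nonneg a)

lemma norm_E_sq_le (a : T →₀ ℝ) : ‖E a‖ ^ 2 ≤ l2 a := by
  rw [← Real.sq_sqrt (l2_nonneg a)]
  exact pow_le_pow_left₀ (norm_nonneg _) (norm_E_le a) 2

open Classical in
lemma tail_N (x : XT T) {ε : ℝ} (hε : 0 < ε) :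
    ∃ F : Finset T, ∀ f : T →₀ ℝ, |ev x (f.filter fun t => t ∉ F)| ≤ ε * N f := by
  refine tail_small N N_nonneg N_smul_le ?_ ?_ ?_ (ev x) (abs_ev_le x) hε
  · intro G f
    exact N_filter_le _ (conv_comp fun k => k ∉ G) f
  · intro s g hg
    simp only [N_sq]
    exact Q_sum_le s g hg
  · intro G
    refine ⟨(G.sup id + 1 : ℕ), by positivity, fun f => ?_, fun f hf => ?_⟩
    · rw [N_sq]
      have h1 := l2_le_Q (f.filter fun t => Forest.comp t ∈ G)
      have h2 := Q_filter_le _ (conv_comp fun k => k ∈ G) f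
      have h3 : (1 : ℝ) ≤ (G.sup id + 1 : ℕ) := by exact_mod_cast Nat.le_add_left _ _
      have h4 := Q_nonneg f
      nlinarith
    · rw [N_sq]
      exact Q_le_of_csupp G f hf

open Classical in
lemma tail_E (u : StrongDual ℝ (XT T)) {ε : ℝ} (hε : 0 < ε) :
    ∃ F : Finset T, ∀ a : T →₀ ℝ, |u (E (a.filter fun t => t ∉ F))| ≤ ε * ‖E a‖ := by
  refine tail_small (fun a => ‖E a‖) (fun _ => norm_nonneg _) ?_ ?_ ?_ ?_
    (u.toLinearMap ∘ₗ E) (M := ‖u‖) (fun a => u.le_opNorm (E a)) hε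
  · intro c a
    simp only [map_smul, norm_smul, Real.norm_eq_abs, le_refl]
  · intro G a
    apply norm_le_of_ev (norm_nonneg _)
    intro f
    rw [ev_E_filter]
    refine le_trans (abs_ev_le _ _) ?_
    exact mul_le_mul_of_nonneg_left (N_filter_le _ (conv_comp fun k => k ∉ G) f) (norm_nonneg _)
  · intro s g hg
    have h0 : 0 ≤ ∑ i ∈ s, ‖E (g i)‖ ^ 2 := sum_nonneg fun _ _ => sq_nonneg _
    rw [← Real.sq_sqrt h0]
    apply pow_le_pow_left₀ (norm_nonneg _)
    apply norm_le_of_ev (Real.sqrt_nonneg _)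
    intro f
    rw [map_sum, ev_sum]
    have h1 : ∀ i ∈ s, |ev (E (g i)) f| ≤
        ‖E (g i)‖ * N (f.filter fun t => Forest.comp t ∈ csupp (g i)) := by
      intro i _
      have h2 : g i = (g i).filter fun t => Forest.comp t ∈ csupp (g i) := by
        ext t
        rw [Finsupp.filter_apply]
        split_ifs with h
        · rfl
        · by_contra h'
          exact h (comp_mem_csupp h')
      have h3 : ev (E (g i)) f = ev (E (g i)) (f.filter fun t => Forest.comp t ∈ csupp (g i)) := by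
        rw [← ev_E_filter, ← h2]
      rw [h3]
      exact abs_ev_le _ _
    refine le_trans (abs_sum_le_sum_abs _ _) (le_trans (sum_le_sum h1) ?_)
    refine le_trans (Real.sum_mul_le_sqrt_mul_sqrt _ _ _) ?_
    apply mul_le_mul_of_nonneg_left _ (Real.sqrt_nonneg _)
    apply Real.sqrt_le_sqrt
    simp only [N_sq]
    apply sum_Q_filter_le s (fun i t => Forest.comp t ∈ csupp (g i))
    · intro i _
      exact conv_comp fun k => k ∈ csupp (g i)
    · intro i hi j hj t hit hjt
      by_contra hij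
      exact disjoint_left.1 (hg hi hj hij) hit hjt
  · intro G
    have h3 : (1 : ℝ) ≤ (G.sup id + 1 : ℕ) := by exact_mod_cast Nat.le_add_left _ _
    refine ⟨(G.sup id + 1 : ℕ), by positivity, fun a => ?_, fun a _ => ?_⟩
    · set b := a.filter fun t => Forest.comp t ∈ G with hb
      have h1 : l2 b = ev (E a) b := by
        rw [← ev_E_self, hb, ev_E_filter]
        congr 1
        ext t
        simp only [Finsupp.filter_apply]
        split_ifs <;> rfl
      have h2 := Q_le_of_csupp G b (by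
        apply csupp_subset
        intro t ht
        rw [hb, Finsupp.filter_apply] at ht
        by_contra h
        simp [h] at ht)
      have h4 : l2 b ≤ ‖E a‖ * N b := h1 ▸ (le_abs_self _).trans (abs_ev_le _ _)
      have h5 : l2 b ^ 2 ≤ ‖E a‖ ^ 2 * ((G.sup id + 1 : ℕ) * l2 b) := by
        calc l2 b ^ 2 ≤ (‖E a‖ * N b) ^ 2 := pow_le_pow_left₀ (l2_nonneg _) h4 2
          _ = ‖E a‖ ^ 2 * Q b := by rw [mul_pow, N_sq]
          _ ≤ _ := mul_le_mul_of_nonneg_left h2 (sq_nonneg _)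
      rcases (l2_nonneg b).eq_or_lt with h0 | h0
      · rw [← h0]; positivity
      · nlinarith
    · have h1 := norm_E_sq_le a
      have h2 := l2_nonneg a
      nlinarith

omit [Forest T] in
lemma filter_mem_eq_sum [DecidableEq T] (f : T →₀ ℝ) (F : Finset T) :
    f.filter (fun t => t ∈ F) = ∑ t ∈ F, f t • Finsupp.single t (1 : ℝ) := by
  ext u
  rw [Finsupp.filter_apply, Finsupp.finsetSum_apply]
  simp [Finsupp.single_apply]

lemma dense_E : DenseRange (E : (T →₀ ℝ) → XT T) := by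
  classical
  rw [Metric.denseRange_iff]
  intro x ε hε
  obtain ⟨F, hF⟩ := tail_N x (half_pos hε)
  refine ⟨∑ t ∈ F, ev x (Finsupp.single t 1) • Finsupp.single t 1, ?_⟩
  rw [dist_eq_norm]
  refine lt_of_le_of_lt (norm_le_of_ev (half_pos hε).le fun f => ?_) (half_lt_self hε)
  refine le_trans (le_of_eq ?_) (hF f)
  congr 1
  have h1 : f.filter (fun t => t ∉ F) = f - f.filter (fun t => t ∈ F) := by
    rw [eq_sub_iff_add_eq, add_comm, Finsupp.filter_add_filter_not]
  rw [ev_sub]
  convert_to _ = ev x (f.filter (fun t => t ∉ F))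
  rw [h1, map_sub, filter_mem_eq_sum, map_sum, map_sum, ev_sum]
  congr 1
  apply sum_congr rfl
  intro t _
  rw [map_smul, map_smul, ev_smul, E, Finsupp.linearCombination_single, one_smul, ev_coord,
    smul_eq_mul, mul_comm]

lemma denseRange_of_norm {α Z : Type*} [NormedAddCommGroup Z] (f : α → Z)
    (h : ∀ z : Z, ∀ ε : ℝ, 0 < ε → ∃ a, ‖z - f a‖ < ε) : DenseRange f := by
  rw [Metric.denseRange_iff]
  intro z ε hε
  obtain ⟨a, ha⟩ := h z ε hε
  exact ⟨a, by rwa [dist_eq_norm]⟩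

lemma dense_incl : DenseRange (NormedSpace.inclusionInDoubleDual ℝ (JT T)) := by
  classical
  refine denseRange_of_norm (Z := StrongDual ℝ (XT T)) _ ?_
  intro u ε hε
  obtain ⟨F, hF⟩ := tail_E u (half_pos hε)
  refine ⟨toJT (∑ t ∈ F, u (coord t) • Finsupp.single t 1), ?_⟩
  refine lt_of_le_of_lt (ContinuousLinearMap.opNorm_le_bound _ (half_pos hε).le ?_)
    (half_lt_self hε)
  intro x
  refine dense_E.induction_on x ?_ ?_
  · apply isClosed_le <;> fun_prop
  · intro a
    refine le_trans (le_of_eq ?_) (hF a)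
    rw [Real.norm_eq_abs]
    congr 1
    have h1 : a.filter (fun t => t ∉ F) = a - a.filter (fun t => t ∈ F) := by
      rw [eq_sub_iff_add_eq, add_comm, Finsupp.filter_add_filter_not]
    rw [_root_.sub_apply, NormedSpace.dual_def, ← ev_apply]
    convert_to _ = u (E (a.filter (fun t => t ∉ F)))
    rw [h1, map_sub, map_sub, filter_mem_eq_sum, map_sum, map_sum, map_sum]
    congr 1
    apply sum_congr rfl
    intro t _
    rw [map_smul, map_smul, map_smul, smul_eq_mul, smul_eq_mul, mul_comm]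
    congr 1
    · rw [ev_E (G := insert t a.support) (subset_insert _ _), sum_eq_single t]
      · simp
      · intro b _ hb
        simp [hb.symm]
      · intro h; exact absurd (mem_insert_self _ _) h
    · rw [E, Finsupp.linearCombination_single, one_smul]

theorem reflexive_XT : Function.Surjective (NormedSpace.inclusionInDoubleDual ℝ (XT T)) := by
  intro Φ
  refine ⟨Φ.comp (NormedSpace.inclusionInDoubleDual ℝ (JT T)), ?_⟩
  ext u
  refine dense_incl.induction_on u ?_ ?_
  · apply isClosed_eq <;> fun_prop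
  · intro f
    rfl

end Vale.Agent.P069
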