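import Vale.Agent.P069.Defs
import Vale.Agent.P069.Key
import Vale.Agent.P069.Space

namespace Vale.Agent.P069

open Finset

section General

variable {T : Type} [Forest T]

/-- The functionals vanishing on a finite set of nodes. -/
noncomputable def restr (F : Finset T) : XT T →ₗ[ℝ] (F → ℝ) where
  toFun y := fun t => ev y (Finsupp.single t.1 1)
  map_add' _ _ := rfl
  map_smul' _ _ := rfl

lemma isCof_ker_restr (F : Finset T) : IsCof (LinearMap.ker (restr F)) := by
  constructor
  · have : (LinearMap.ker (restr F) : Set (XT T)) =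
        ⋂ t : F, {y : XT T | y (toJT (Finsupp.single t.1 1)) = 0} := by
      ext y
      simp only [SetLike.mem_coe, LinearMap.mem_ker, Set.mem_iInter, Set.mem_ofPred_eq]
      exact funext_iff
    rw [this]
    apply isClosed_iInter
    intro t
    apply isClosed_eq _ continuous_const
    fun_prop
  · exact (LinearMap.quotKerEquivRange (restr F)).symm.finiteDimensional

lemma amuc_core (x : XT T) (hx : ‖x‖ = 1) {t : ℝ} (ht : 0 < t) {r : ℝ}
    (hr : r < √(1 + t ^ 2 / 12)) :
    ∃ F : Submodule ℝ (XT T), IsCof F ∧ ∀ y ∈ F, ‖y‖ = 1 → r ≤ max ‖x + t • y‖ ‖x - t • y‖ := by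
  classical
  set R := √(1 + t ^ 2 / 12) with hR
  have hR2 : R ^ 2 = 1 + t ^ 2 / 12 := Real.sq_sqrt (by positivity)
  have hR0 : 0 < R := Real.sqrt_pos.2 (by positivity)
  set c := t / 12 with hc
  have hc0 : 0 < c := by positivity
  set η := (R - r) * R / (1 + c + c * t) with hη
  have hη0 : 0 < η := by
    have : 0 < R - r := by linarith
    positivity
  obtain ⟨F₀, hF₀⟩ := tail_N x hη0
  obtain ⟨f, hf1, hf⟩ := exists_ev_gt x (r := 1 - η) (by rw [hx]; linarith)
  set F := (F₀ ∪ f.support).biUnion Forest.anc with hF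
  have hlow : ∀ a b : T, a ≤ b → b ∈ F → a ∈ F := by
    intro a b hab hb
    obtain ⟨u, hu, hbu⟩ := mem_biUnion.1 hb
    exact mem_biUnion.2 ⟨u, hu, Forest.mem_anc.2 (hab.trans (Forest.mem_anc.1 hbu))⟩
  have hsub : ∀ a ∈ F₀ ∪ f.support, a ∈ F := fun a ha =>
    mem_biUnion.2 ⟨a, ha, Forest.mem_anc.2 le_rfl⟩
  refine ⟨LinearMap.ker (restr F), isCof_ker_restr F, fun y hy hy1 => ?_⟩
  obtain ⟨g₀, hg₀1, hg₀⟩ := exists_ev_gt y (r := 1 - η) (by rw [hy1]; linarith)
  set g := g₀.filter fun u => u ∉ F with hg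
  have hyg : ev y g = ev y g₀ := by
    have h1 : g = g₀ - g₀.filter (fun u => u ∈ F) := by
      rw [eq_sub_iff_add_eq, add_comm, hg, Finsupp.filter_add_filter_not]
    rw [h1, map_sub, filter_mem_eq_sum, map_sum, sum_eq_zero, sub_zero]
    intro u hu
    have : ev y (Finsupp.single u 1) = 0 := congrFun (LinearMap.mem_ker.1 hy) ⟨u, hu⟩
    rw [map_smul, this, smul_zero]
  have hg1 : N g ≤ 1 := (N_filter_le _ (conv_not_lower hlow) g₀).trans hg₀1
  obtain ⟨w, hwF, hw1, hw⟩ := key (F := fun u => u ∈ F) hlow f g (by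
      intro u hu
      by_contra h
      exact hu (hsub u (mem_union_right _ (Finsupp.mem_support_iff.2 h)))) (by
      intro u hu
      rw [hg, Finsupp.filter_apply, if_neg (not_not.2 hu)]) hf1 hg1 hc0.le
  have hxw : |ev x w| ≤ η := by
    have h1 := hF₀ w
    have h2 : w.filter (fun u => u ∉ F₀) = w := by
      ext u
      rw [Finsupp.filter_apply]
      split_ifs with h
      · exact (hwF u (hsub u (mem_union_left _ h))).symm
      · rfl
    have h3 : |ev x w| ≤ η * N w := by
      convert h1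
      exact h2.symm
    nlinarith
  have hc2 : 1 + 12 * c ^ 2 = R ^ 2 := by rw [hR2, hc]; ring
  have hp : N (f + c • (w + (1 : ℝ) • g)) ≤ R :=
    N_le_of_Q_le hR0.le (hc2 ▸ hw 1 (Or.inl rfl))
  have hm : N (f + c • (w + (-1 : ℝ) • g)) ≤ R :=
    N_le_of_Q_le hR0.le (hc2 ▸ hw (-1) (Or.inr rfl))
  set m := max ‖x + t • y‖ ‖x - t • y‖ with hmax
  have hm0 : 0 ≤ m := le_max_of_le_left (norm_nonneg _)
  have h1 : ev (x + t • y) (f + c • (w + (1 : ℝ) • g)) ≤ m * R :=
    (le_abs_self _).trans ((abs_ev_le _ _).trans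
      (mul_le_mul (le_max_left _ _) hp (N_nonneg _) hm0))
  have h2 : ev (x - t • y) (f + c • (w + (-1 : ℝ) • g)) ≤ m * R :=
    (le_abs_self _).trans ((abs_ev_le _ _).trans
      (mul_le_mul (le_max_right _ _) hm (N_nonneg _) hm0))
  simp only [ev_add, ev_sub, ev_smul, map_add, map_smul, smul_eq_mul] at h1 h2
  have h3 : 2 * ev x f + 2 * c * ev x w + 2 * (c * t) * ev y g ≤ 2 * (m * R) := by linarith
  have h4 : -η ≤ ev x w := (abs_le.1 hxw).1
  have h5 : 1 - η ≤ ev y g := by rw [hyg]; exact hg₀.le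
  have h6 : c * (-η) ≤ c * ev x w := mul_le_mul_of_nonneg_left h4 hc0.le
  have h7 : (c * t) * (1 - η) ≤ (c * t) * ev y g := mul_le_mul_of_nonneg_left h5 (by positivity)
  have h8 : η * (1 + c + c * t) = (R - r) * R := by
    rw [hη]; field_simp
  have h9 : 1 + c * t = R ^ 2 := by rw [hR2, hc]; ring
  have h10 : r * R ≤ m * R := by nlinarith
  exact le_of_mul_le_mul_right h10 hR0

theorem amuc_bound {t : ℝ} (ht : 0 < t) :
    ((√(1 + t ^ 2 / 12) - 1 : ℝ) : EReal) ≤ amucModulus (normSeminorm ℝ (XT T)) t := by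
  unfold amucModulus
  refine le_iInf₂ fun x hx => ?_
  refine le_of_forall_lt_imp_le_of_dense fun a ha => ?_
  obtain ⟨z, hz1, hz2⟩ := EReal.lt_iff_exists_real_btwn.1 ha
  refine hz1.le.trans ?_
  rw [EReal.coe_lt_coe_iff] at hz2
  obtain ⟨F, hF, hF'⟩ := amuc_core x hx ht (r := z + 1) (by linarith)
  refine le_iSup₂_of_le F hF (le_iInf₂ fun y hy => ?_)
  rw [EReal.coe_le_coe_iff]
  have := hF' y hy.1 hy.2
  simp only [coe_normSeminorm]
  linarith

lemma tendsto_coord (u : StrongDual ℝ (XT T)) (v : ℕ → T) (hv : Function.Injective v) :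
    Filter.Tendsto (fun n => u (coord (v n))) Filter.atTop (nhds 0) := by
  have h1 : ∀ m, ∑ i ∈ range m, u (coord (v i)) ^ 2 ≤ ‖u‖ ^ 2 * 1 := by
    intro m
    apply bessel u.toLinearMap (fun x => ‖x‖) (fun _ => norm_nonneg _) (fun x => u.le_opNorm x)
      zero_le_one (fun i => coord (v i)) m
    intro a
    have h2 : ∑ i ∈ range m, a i • coord (v i) =
        E (∑ i ∈ range m, a i • Finsupp.single (v i) (1 : ℝ)) := by
      rw [map_sum]
      apply sum_congr rfl
      intro i _
      rw [map_smul, E, Finsupp.linearCombination_single, one_smul]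
    rw [h2, one_mul]
    refine (norm_E_sq_le _).trans (le_of_eq ?_)
    rw [l2_sum]
    · apply sum_congr rfl
      intro i _
      rw [l2_smul, l2_eq_of_subset _ Finsupp.support_single_subset]
      simp
    · intro i _ j _ hij
      refine Disjoint.mono (Finsupp.support_smul.trans Finsupp.support_single_subset)
        (Finsupp.support_smul.trans Finsupp.support_single_subset) ?_
      simpa using fun h => hij (hv h)
  have h2 : Summable fun n => u (coord (v n)) ^ 2 :=
    summable_of_sum_range_le (fun _ => sq_nonneg _) h1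
  have h3 := h2.tendsto_atTop_zero
  have h4 := h3.sqrt
  simp only [Real.sqrt_sq_eq_abs, Real.sqrt_zero] at h4
  exact (tendsto_zero_iff_abs_tendsto_zero _).2 h4

end General

lemma exists_near {X : Type} [NormedAddCommGroup X] [NormedSpace ℝ X] (v : ℕ → X)
    (hv : ∀ u : StrongDual ℝ X, Filter.Tendsto (fun n => u (v n)) Filter.atTop (nhds 0))
    {F : Submodule ℝ X} (hF : IsCof F) {η : ℝ} (hη : 0 < η) : ∃ n, ∃ z ∈ F, ‖v n - z‖ < η := by
  have := hF.1
  have := hF.2
  let b := Module.finBasis ℝ (X ⧸ F)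
  have hq : Continuous F.mkQ := continuous_quot_mk
  have h1 : Filter.Tendsto (fun n => F.mkQ (v n)) Filter.atTop (nhds 0) := by
    have h2 : ∀ n, F.mkQ (v n) = ∑ i, b.repr (F.mkQ (v n)) i • b i := fun n => (b.sum_repr _).symm
    rw [show (fun n => F.mkQ (v n)) = fun n => ∑ i, b.repr (F.mkQ (v n)) i • b i from funext h2]
    have h3 : (0 : X ⧸ F) = ∑ i, (0 : ℝ) • b i := by simp
    rw [h3]
    apply tendsto_finsetSum
    intro i _
    apply Filter.Tendsto.smul_const
    exact hv ((LinearMap.toContinuousLinearMap (b.coord i)).comp ⟨F.mkQ, hq⟩)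
  have h4 := (tendsto_zero_iff_norm_tendsto_zero.1 h1).eventually (gt_mem_nhds hη)
  obtain ⟨n, hn⟩ := h4.exists
  obtain ⟨m, hm, hm'⟩ := Submodule.Quotient.norm_mk_lt (F.mkQ (v n))
    (ε := η - ‖F.mkQ (v n)‖) (by linarith)
  refine ⟨n, v n - m, ?_, ?_⟩
  · rw [← Submodule.Quotient.eq]
    exact hm.symm
  · simp only [sub_sub_cancel]
    linarith

lemma auc_step {X : Type} [NormedAddCommGroup X] [NormedSpace ℝ X] (p : Seminorm ℝ X)
    {c C δ : ℝ} (hc : 0 < c) (hC : 0 < C) (hδ : 0 < δ) (hδ1 : δ ≤ 1)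
    (hp : ∀ x : X, c * ‖x‖ ≤ p x ∧ p x ≤ C * ‖x‖)
    (hmod : (δ : EReal) < aucModulus p (c / (2 * C))) (s : X) (hs : ‖s‖ = 1) (v : ℕ → X)
    (hv1 : ∀ n, 1 ≤ ‖v n‖)
    (hv : ∀ u : StrongDual ℝ X, Filter.Tendsto (fun n => u (v n)) Filter.atTop (nhds 0)) :
    ∃ n, (1 + δ / 2) * p s ≤ p (s + v n) := by
  set τ := c / (2 * C) with hτ
  have hτ0 : 0 < τ := by positivity
  have hps1 : c ≤ p s := by simpa [hs] using (hp s).1
  have hps2 : p s ≤ C := by simpa [hs] using (hp s).2
  have hps : 0 < p s := lt_of_lt_of_le hc hps1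
  set x := (p s)⁻¹ • s with hx
  have hx1 : p x = 1 := by
    rw [hx, map_smul_eq_mul, Real.norm_eq_abs, abs_of_pos (inv_pos.2 hps), inv_mul_cancel₀ hps.ne']
  have h1 := lt_of_lt_of_le hmod (iInf₂_le x hx1)
  obtain ⟨F, h2⟩ := lt_iSup_iff.1 h1
  obtain ⟨hF, h3⟩ := lt_iSup_iff.1 h2
  have h4 : ∀ y ∈ F, p y = 1 → 1 + δ ≤ p (x + τ • y) := by
    intro y hy hy1
    have h5 := lt_of_lt_of_le h3 (iInf₂_le y ⟨hy, hy1⟩)
    rw [EReal.coe_lt_coe_iff] at h5
    linarith
  have h6 : ∀ y ∈ F, τ ≤ p y → 1 + δ ≤ p (x + y) := by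
    intro y hy hy1
    have hy0 : 0 < p y := lt_of_lt_of_le hτ0 hy1
    have h7 := h4 ((p y)⁻¹ • y) (F.smul_mem _ hy) (by
      rw [map_smul_eq_mul, Real.norm_eq_abs, abs_of_pos (inv_pos.2 hy0), inv_mul_cancel₀ hy0.ne'])
    set l := τ * (p y)⁻¹ with hl
    have hl0 : 0 < l := by positivity
    have hl1 : l ≤ 1 := by
      rw [hl, mul_inv_le_iff₀ hy0, one_mul]; exact hy1
    have h8 : x + τ • (p y)⁻¹ • y = (1 - l) • x + l • (x + y) := by
      rw [smul_smul, ← hl]; module
    rw [h8] at h7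
    have h9 := map_add_le_add p ((1 - l) • x) (l • (x + y))
    rw [map_smul_eq_mul p (1 - l), map_smul_eq_mul p l, hx1, Real.norm_eq_abs, Real.norm_eq_abs,
      abs_of_nonneg (by linarith), abs_of_pos hl0] at h9
    by_contra h10
    push Not at h10
    nlinarith
  obtain ⟨n, z, hz, hnz⟩ := exists_near v hv hF (η := δ * c / (2 * C)) (by positivity)
  refine ⟨n, ?_⟩
  have h11 : p (v n - z) ≤ δ * c / 2 := by
    refine (hp _).2.trans ?_
    have := mul_le_mul_of_nonneg_left hnz.le hC.le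
    refine this.trans (le_of_eq ?_)
    field_simp
  have h12 : c / 2 ≤ p z := by
    have h13 := map_add_le_add p (v n - z) z
    rw [sub_add_cancel] at h13
    have h14 : c ≤ p (v n) := le_trans (by nlinarith [hv1 n]) (hp (v n)).1
    nlinarith
  have h15 := h6 ((p s)⁻¹ • z) (F.smul_mem _ hz) (by
    rw [map_smul_eq_mul, Real.norm_eq_abs, abs_of_pos (inv_pos.2 hps), le_inv_mul_iff₀ hps, hτ]
    refine le_trans ?_ h12
    rw [← mul_div_assoc, div_le_div_iff₀ (by positivity) (by positivity)]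
    nlinarith)
  rw [hx, ← smul_add, map_smul_eq_mul, Real.norm_eq_abs, abs_of_pos (inv_pos.2 hps),
    le_inv_mul_iff₀ hps] at h15
  have h16 := map_add_le_add p (s + v n) (-(v n - z))
  rw [map_neg_eq_map, show s + v n + -(v n - z) = s + z by abel] at h16
  nlinarith

/-- The forest of countably branching trees of finite height. -/
def Tr : Type := {q : ℕ × List ℕ // q.2.length ≤ q.1}

instance : Countable Tr := inferInstanceAs (Countable {q : ℕ × List ℕ // q.2.length ≤ q.1})

instance : PartialOrder Tr where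
  le a b := a.1.1 = b.1.1 ∧ a.1.2 <:+ b.1.2
  le_refl _ := ⟨rfl, List.suffix_refl _⟩
  le_trans _ _ _ h1 h2 := ⟨h1.1.trans h2.1, h1.2.trans h2.2⟩
  le_antisymm _ _ h1 h2 := Subtype.ext (Prod.ext h1.1
    (h1.2.eq_of_length (le_antisymm h1.2.length_le h2.2.length_le)))

lemma Tr.le_def {a b : Tr} : a ≤ b ↔ a.1.1 = b.1.1 ∧ a.1.2 <:+ b.1.2 := Iff.rfl

/-- The ancestor obtained by forgetting the last `i` steps. -/
def up (t : Tr) (i : ℕ) : Tr :=
  ⟨(t.1.1, t.1.2.drop i), by
    have := t.2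
    simp only [List.length_drop]
    omega⟩

open Classical in
noncomputable instance : Forest Tr where
  tree := fun {a b t} h1 h2 => by
    rcases List.suffix_or_suffix_of_suffix h1.2 h2.2 with h | h
    · exact Or.inl ⟨h1.1.trans h2.1.symm, h⟩
    · exact Or.inr ⟨h2.1.trans h1.1.symm, h⟩
  anc t := (range (t.1.1 + 1)).image (up t)
  mem_anc := fun {a t} => by
    rw [mem_image]
    constructor
    · rintro ⟨i, _, rfl⟩
      exact ⟨rfl, List.drop_suffix _ _⟩
    · intro h
      refine ⟨t.1.2.length - a.1.2.length, ?_, ?_⟩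
      · have := t.2
        rw [mem_range]
        omega
      · exact Subtype.ext (Prod.ext h.1.symm (List.suffix_iff_eq_drop.1 h.2).symm)
  comp t := t.1.1
  comp_eq := fun h => h.1
  card_anc t := card_image_le.trans (by simp)

/-- The children of a node which is not at the maximal height. -/
def child (t : Tr) (h : t.1.2.length < t.1.1) (n : ℕ) : Tr := ⟨(t.1.1, n :: t.1.2), h⟩

lemma child_injective (t : Tr) (h : t.1.2.length < t.1.1) : Function.Injective (child t h) := by
  intro n m hnm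
  have := congrArg (fun q : Tr => q.1.2) hnm
  simpa [child] using this

/-- The branch functionals. -/
noncomputable def br (t : Tr) : XT Tr := ∑ u ∈ Forest.anc t, coord u

lemma br_child (t : Tr) (h : t.1.2.length < t.1.1) (n : ℕ) :
    br (child t h n) = br t + coord (child t h n) := by
  classical
  have h1 : Forest.anc (child t h n) = insert (child t h n) (Forest.anc t) := by
    ext a
    rw [mem_insert, Forest.mem_anc, Forest.mem_anc, Tr.le_def, Tr.le_def]
    constructor
    · rintro ⟨h1, h2⟩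
      rcases List.suffix_cons_iff.1 h2 with h3 | h3
      · exact Or.inl (Subtype.ext (Prod.ext h1 h3))
      · exact Or.inr ⟨h1, h3⟩
    · rintro (rfl | ⟨h1, h2⟩)
      · exact ⟨rfl, List.suffix_refl _⟩
      · exact ⟨h1, List.suffix_cons_iff.2 (Or.inr h2)⟩
  have h2 : child t h n ∉ Forest.anc t := by
    rw [Forest.mem_anc, Tr.le_def]
    intro h3
    have := h3.2.length_le
    simp [child] at this
  rw [br, h1, sum_insert h2, br, add_comm]

lemma one_le_norm {x : XT Tr} (t : Tr) (h : ev x (Finsupp.single t 1) = 1) : 1 ≤ ‖x‖ := by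
  have h1 := abs_ev_le x (Finsupp.single t 1)
  rw [h, abs_one] at h1
  exact h1.trans (mul_le_of_le_one_right (norm_nonneg _) (N_single_le t))

lemma norm_br (t : Tr) : ‖br t‖ = 1 := by
  classical
  apply le_antisymm
  · apply norm_le_of_ev zero_le_one
    intro f
    rw [br, ev_sum, one_mul]
    exact abs_seg_le_N (isSeg_anc t) f
  · apply one_le_norm t
    rw [br, ev_sum]
    simp only [ev_coord]
    rw [sum_eq_single t]
    · simp
    · intro b _ hb
      simp [hb.symm]
    · intro h; exact absurd (Forest.mem_anc.2 le_rfl) h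

lemma one_le_norm_coord (t : Tr) : 1 ≤ ‖(coord t : XT Tr)‖ :=
  one_le_norm t (by simp [ev_coord])

theorem not_auc : ¬ AUCRenormable (XT Tr) := by
  rintro ⟨p, ⟨c, C, hc, hp⟩, hauc⟩
  have hcC : ∀ t : Tr, c ≤ p (br t) ∧ p (br t) ≤ C := fun t => by
    simpa [norm_br] using hp (br t)
  have hC : 0 < C := by
    have := hcC ⟨(0, []), le_rfl⟩
    linarith
  obtain ⟨z, hz1, hz2⟩ := EReal.lt_iff_exists_real_btwn.1 (hauc (c / (2 * C)) (by positivity))
  have hz0 : 0 < z := by exact_mod_cast hz1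
  set δ := min z 1 with hδ
  have hδ0 : 0 < δ := lt_min hz0 one_pos
  have hmod : (δ : EReal) < aucModulus p (c / (2 * C)) :=
    lt_of_le_of_lt (EReal.coe_le_coe_iff.2 (min_le_left _ _)) hz2
  have hind : ∀ k j : ℕ, j ≤ k → ∃ t : Tr, t.1.1 = k ∧ t.1.2.length = j ∧
      c * (1 + δ / 2) ^ j ≤ p (br t) := by
    intro k j
    induction j with
    | zero =>
      intro _
      exact ⟨⟨(k, []), Nat.zero_le _⟩, rfl, rfl, by simpa using (hcC _).1⟩
    | succ j ih =>
      intro hj
      obtain ⟨t, ht1, ht2, ht3⟩ := ih (by omega)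
      have hlt : t.1.2.length < t.1.1 := by omega
      obtain ⟨n, hn⟩ := auc_step p hc hC hδ0 (min_le_right _ _) hp hmod (br t) (norm_br t)
        (fun n => coord (child t hlt n)) (fun n => one_le_norm_coord _)
        (fun u => tendsto_coord u _ (child_injective t hlt))
      refine ⟨child t hlt n, ht1, by simp [child, ht2], ?_⟩
      rw [br_child, pow_succ]
      nlinarith
  obtain ⟨k, hk⟩ := pow_unbounded_of_one_lt (C / c) (show 1 < 1 + δ / 2 by linarith)
  obtain ⟨t, _, _, ht⟩ := hind k k le_rfl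
  rw [div_lt_iff₀ hc] at hk
  have := (hcC t).2
  linarith

theorem not_finiteDimensional : ¬ FiniteDimensional ℝ (XT Tr) := by
  intro h
  have hcof : IsCof (⊥ : Submodule ℝ (XT Tr)) :=
    ⟨by simp, inferInstance⟩
  let t : Tr := ⟨(1, []), Nat.zero_le _⟩
  have hlt : t.1.2.length < t.1.1 := Nat.zero_lt_one
  obtain ⟨n, z, hz, hn⟩ := exists_near (fun n => coord (child t hlt n))
    (fun u => tendsto_coord u _ (child_injective t hlt)) hcof one_pos
  rw [Submodule.mem_bot] at hz
  rw [hz, sub_zero] at hn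
  exact absurd (one_le_norm_coord _) (not_le.2 hn)

theorem separable_XT : TopologicalSpace.SeparableSpace (XT Tr) := by
  rw [← TopologicalSpace.isSeparable_univ_iff, ← (dense_E (T := Tr)).closure_range]
  apply TopologicalSpace.IsSeparable.closure
  have h1 : Set.range (E : (Tr →₀ ℝ) → XT Tr) =
      (Submodule.span ℝ (Set.range (coord : Tr → XT Tr)) : Set (XT Tr)) := by
    rw [← Finsupp.range_linearCombination]
    rfl
  rw [h1]
  exact (Set.countable_range _).isSeparable.span

end Vale.Agent.P069
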