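import Mathlib

namespace Vale.Agent.P069

open Finset

/-- A forest whose components have finite height. -/
class Forest (T : Type) extends PartialOrder T where
  tree : ∀ {a b t : T}, a ≤ t → b ≤ t → a ≤ b ∨ b ≤ a
  anc : T → Finset T
  mem_anc : ∀ {a t : T}, a ∈ anc t ↔ a ≤ t
  comp : T → ℕ
  comp_eq : ∀ {a b : T}, a ≤ b → comp a = comp b
  card_anc : ∀ t : T, (anc t).card ≤ comp t + 1

variable {T : Type} [Forest T]

/-- Segments: order-convex finite chains. -/
def IsSeg (S : Finset T) : Prop :=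
  (∀ a ∈ S, ∀ b ∈ S, a ≤ b ∨ b ≤ a) ∧ (∀ a ∈ S, ∀ b ∈ S, ∀ c, a ≤ c → c ≤ b → c ∈ S)

/-- Order convex predicates. -/
def Conv (A : T → Prop) : Prop := ∀ a b c : T, A a → A b → a ≤ c → c ≤ b → A c

lemma isSeg_empty : IsSeg (∅ : Finset T) := by
  constructor <;> simp

lemma isSeg_singleton (t : T) : IsSeg ({t} : Finset T) := by
  constructor
  · simp
  · intro a ha b hb c hac hcb
    simp only [mem_singleton] at *
    subst ha; subst hb
    exact le_antisymm hcb hac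

lemma IsSeg.filter {S : Finset T} (hS : IsSeg S) {A : T → Prop} [DecidablePred A] (hA : Conv A) :
    IsSeg (S.filter A) := by
  constructor
  · intro a ha b hb
    exact hS.1 a (mem_filter.1 ha).1 b (mem_filter.1 hb).1
  · intro a ha b hb c hac hcb
    rw [mem_filter] at *
    exact ⟨hS.2 a ha.1 b hb.1 c hac hcb, hA a b c ha.2 hb.2 hac hcb⟩

lemma isSeg_anc (t : T) : IsSeg (Forest.anc t) := by
  constructor
  · intro a ha b hb
    exact Forest.tree (Forest.mem_anc.1 ha) (Forest.mem_anc.1 hb)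
  · intro a _ b hb c _ hcb
    exact Forest.mem_anc.2 (hcb.trans (Forest.mem_anc.1 hb))

lemma IsSeg.comp_eq {S : Finset T} (hS : IsSeg S) {a b : T} (ha : a ∈ S) (hb : b ∈ S) :
    Forest.comp a = Forest.comp b := by
  rcases hS.1 a ha b hb with h | h
  · exact Forest.comp_eq h
  · exact (Forest.comp_eq h).symm

lemma IsSeg.exists_top {S : Finset T} (hS : IsSeg S) (hne : S.Nonempty) :
    ∃ b ∈ S, ∀ a ∈ S, a ≤ b := by
  obtain ⟨b, hb⟩ := S.exists_maximal hne
  refine ⟨b, hb.1, fun a ha => ?_⟩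
  rcases hS.1 a ha b hb.1 with h | h
  · exact h
  · exact hb.2 ha h

lemma IsSeg.exists_bot {S : Finset T} (hS : IsSeg S) (hne : S.Nonempty) :
    ∃ b ∈ S, ∀ a ∈ S, b ≤ a := by
  obtain ⟨b, hb⟩ := S.exists_minimal hne
  refine ⟨b, hb.1, fun a ha => ?_⟩
  rcases hS.1 a ha b hb.1 with h | h
  · exact hb.2 ha h
  · exact h

lemma IsSeg.card_le {S : Finset T} (hS : IsSeg S) {a : T} (ha : a ∈ S) :
    S.card ≤ Forest.comp a + 1 := by
  obtain ⟨b, hb, hb'⟩ := hS.exists_top ⟨a, ha⟩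
  rw [hS.comp_eq ha hb]
  refine le_trans (card_le_card ?_) (Forest.card_anc b)
  intro c hc
  exact Forest.mem_anc.2 (hb' c hc)

/-- Families of disjoint segments. -/
def Fam (T : Type) [Forest T] : Type :=
  {P : Finset (Finset T) // (∀ S ∈ P, IsSeg S) ∧ (P : Set (Finset T)).PairwiseDisjoint id}

instance : Nonempty (Fam T) := ⟨⟨∅, by simp, by simp⟩⟩

/-- The quadratic sum over a family. -/
noncomputable def val (P : Fam T) (f : T →₀ ℝ) : ℝ := ∑ S ∈ P.1, (∑ t ∈ S, f t) ^ 2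

/-- The squared `ℓ₂` norm. -/
noncomputable def l2 (f : T →₀ ℝ) : ℝ := ∑ t ∈ f.support, f t ^ 2

omit [Forest T] in
lemma l2_nonneg (f : T →₀ ℝ) : 0 ≤ l2 f := sum_nonneg fun _ _ => sq_nonneg _

omit [Forest T] in
lemma sum_sq_le_l2 (f : T →₀ ℝ) (G : Finset T) : ∑ t ∈ G, f t ^ 2 ≤ l2 f := by
  classical
  unfold l2
  rw [← sum_filter_add_sum_filter_not G (fun t => t ∈ f.support)]
  have h0 : ∑ t ∈ G.filter (fun t => ¬ t ∈ f.support), f t ^ 2 = 0 := by
    apply sum_eq_zero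
    intro t ht
    have := (mem_filter.1 ht).2
    rw [Finsupp.notMem_support_iff] at this
    simp [this]
  rw [h0, add_zero]
  apply sum_le_sum_of_subset_of_nonneg
  · intro t ht; exact (mem_filter.1 ht).2
  · intro _ _ _; exact sq_nonneg _

omit [Forest T] in
lemma l2_eq_of_subset (f : T →₀ ℝ) {G : Finset T} (h : f.support ⊆ G) :
    l2 f = ∑ t ∈ G, f t ^ 2 := by
  unfold l2
  apply sum_subset h
  intro t _ ht
  rw [Finsupp.notMem_support_iff] at ht
  simp [ht]

omit [Forest T] in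
lemma sum_sum_le_l2 {ι : Type*} (s : Finset ι) (S : ι → Finset T)
    (hd : (s : Set ι).PairwiseDisjoint S) (f : T →₀ ℝ) :
    ∑ i ∈ s, ∑ t ∈ S i, f t ^ 2 ≤ l2 f := by
  classical
  rw [← sum_biUnion hd]
  exact sum_sq_le_l2 _ _

omit [Forest T] in
lemma sq_sum_le_of_card {f : T →₀ ℝ} {S : Finset T} {m : ℕ}
    (h : (S.filter (fun t => f t ≠ 0)).card ≤ m) :
    (∑ t ∈ S, f t) ^ 2 ≤ m * ∑ t ∈ S, f t ^ 2 := by
  classical
  have h1 : ∑ t ∈ S, f t = ∑ t ∈ S.filter (fun t => f t ≠ 0), f t := by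
    rw [sum_filter_ne_zero]
  have h2 : ∑ t ∈ S.filter (fun t => f t ≠ 0), f t ^ 2 ≤ ∑ t ∈ S, f t ^ 2 :=
    sum_le_sum_of_subset_of_nonneg (filter_subset _ _) fun _ _ _ => sq_nonneg _
  rw [h1]
  refine le_trans sq_sum_le_card_mul_sum_sq ?_
  have h3 : (0 : ℝ) ≤ ∑ t ∈ S.filter (fun t => f t ≠ 0), f t ^ 2 :=
    sum_nonneg fun _ _ => sq_nonneg _
  have h4 : ((S.filter (fun t => f t ≠ 0)).card : ℝ) ≤ m := by exact_mod_cast h
  exact mul_le_mul h4 h2 h3 (Nat.cast_nonneg _)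

lemma val_le_of_card {f : T →₀ ℝ} {m : ℕ}
    (h : ∀ S : Finset T, IsSeg S → (S.filter (fun t => f t ≠ 0)).card ≤ m) (P : Fam T) :
    val P f ≤ m * l2 f := by
  unfold val
  calc ∑ S ∈ P.1, (∑ t ∈ S, f t) ^ 2 ≤ ∑ S ∈ P.1, (m : ℝ) * ∑ t ∈ S, f t ^ 2 :=
        sum_le_sum fun S hS => sq_sum_le_of_card (h S (P.2.1 S hS))
    _ = m * ∑ S ∈ P.1, ∑ t ∈ S, f t ^ 2 := by rw [mul_sum]
    _ ≤ m * l2 f := mul_le_mul_of_nonneg_left (sum_sum_le_l2 P.1 id P.2.2 f) (Nat.cast_nonneg _)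

lemma bdd_val (f : T →₀ ℝ) : BddAbove (Set.range fun P : Fam T => val P f) := by
  refine ⟨f.support.card * l2 f, ?_⟩
  rintro _ ⟨P, rfl⟩
  apply val_le_of_card
  intro S _
  apply card_le_card
  intro t ht
  exact Finsupp.mem_support_iff.2 (mem_filter.1 ht).2

/-- The squared James tree norm. -/
noncomputable def Q (f : T →₀ ℝ) : ℝ := ⨆ P : Fam T, val P f

lemma val_le_Q (P : Fam T) (f : T →₀ ℝ) : val P f ≤ Q f := le_ciSup (bdd_val f) P

lemma Q_le {f : T →₀ ℝ} {M : ℝ} (h : ∀ P : Fam T, val P f ≤ M) : Q f ≤ M := ciSup_le h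

lemma val_nonneg (P : Fam T) (f : T →₀ ℝ) : 0 ≤ val P f := sum_nonneg fun _ _ => sq_nonneg _

lemma Q_nonneg (f : T →₀ ℝ) : 0 ≤ Q f :=
  le_trans (val_nonneg (Classical.arbitrary _) f) (val_le_Q _ f)

lemma exists_val_gt (f : T →₀ ℝ) {ε : ℝ} (hε : 0 < ε) : ∃ P : Fam T, Q f - ε < val P f :=
  exists_lt_of_lt_ciSup (by unfold Q; linarith)

lemma sum_sq_le_Q {ι : Type*} (s : Finset ι) (S : ι → Finset T) (hs : ∀ i ∈ s, IsSeg (S i))
    (hd : (s : Set ι).PairwiseDisjoint S) (f : T →₀ ℝ) :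
    ∑ i ∈ s, (∑ t ∈ S i, f t) ^ 2 ≤ Q f := by
  classical
  set s' := s.filter (fun i => (S i).Nonempty) with hs'
  have h1 : ∑ i ∈ s, (∑ t ∈ S i, f t) ^ 2 = ∑ i ∈ s', (∑ t ∈ S i, f t) ^ 2 := by
    symm
    apply sum_subset (filter_subset _ _)
    intro i hi hi'
    have : S i = ∅ := by
      by_contra hne
      exact hi' (mem_filter.2 ⟨hi, nonempty_iff_ne_empty.2 hne⟩)
    simp [this]
  have hinj : Set.InjOn S s' := by
    intro i hi j hj hij
    by_contra hne
    have hi' := mem_filter.1 (mem_coe.1 hi)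
    have hj' := mem_filter.1 (mem_coe.1 hj)
    have := hd hi'.1 hj'.1 hne
    simp only [Function.onFun] at this
    rw [← hij, disjoint_self] at this
    exact hi'.2.ne_empty this
  let P : Fam T := ⟨s'.image S, by
    intro U hU
    obtain ⟨i, hi, rfl⟩ := mem_image.1 hU
    exact hs i (mem_filter.1 hi).1, by
    intro U hU V hV hUV
    obtain ⟨i, hi, rfl⟩ := mem_image.1 (mem_coe.1 hU)
    obtain ⟨j, hj, rfl⟩ := mem_image.1 (mem_coe.1 hV)
    have hij : i ≠ j := fun h => hUV (by rw [h])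
    exact hd (mem_filter.1 hi).1 (mem_filter.1 hj).1 hij⟩
  have h2 : val P f = ∑ i ∈ s', (∑ t ∈ S i, f t) ^ 2 := by
    unfold val
    exact sum_image hinj
  rw [h1, ← h2]
  exact val_le_Q P f

lemma Q_le_of_card {f : T →₀ ℝ} {m : ℕ}
    (h : ∀ S : Finset T, IsSeg S → (S.filter (fun t => f t ≠ 0)).card ≤ m) :
    Q f ≤ m * l2 f := Q_le (val_le_of_card h)

lemma l2_le_Q (f : T →₀ ℝ) : l2 f ≤ Q f := by
  classical
  have := sum_sq_le_Q f.support (fun t => {t}) (fun t _ => isSeg_singleton t)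
    (by intro a _ b _ hab; simpa [Function.onFun] using hab) f
  simpa [l2] using this

lemma seg_sq_le_Q {S : Finset T} (hS : IsSeg S) (f : T →₀ ℝ) : (∑ t ∈ S, f t) ^ 2 ≤ Q f := by
  have := sum_sq_le_Q ({()} : Finset Unit) (fun _ => S) (fun _ _ => hS) (by simp) f
  simpa using this

/-- The James tree norm. -/
noncomputable def N (f : T →₀ ℝ) : ℝ := √(Q f)

lemma N_nonneg (f : T →₀ ℝ) : 0 ≤ N f := Real.sqrt_nonneg _

lemma N_sq (f : T →₀ ℝ) : N f ^ 2 = Q f := Real.sq_sqrt (Q_nonneg f)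

lemma N_le_of_Q_le {f : T →₀ ℝ} {M : ℝ} (hM : 0 ≤ M) (h : Q f ≤ M ^ 2) : N f ≤ M :=
  Real.sqrt_le_iff.2 ⟨hM, h⟩

lemma Q_le_of_N_le {f : T →₀ ℝ} {M : ℝ} (h : N f ≤ M) : Q f ≤ M ^ 2 := by
  rw [← N_sq]
  exact pow_le_pow_left₀ (N_nonneg f) h 2

lemma abs_seg_le_N {S : Finset T} (hS : IsSeg S) (f : T →₀ ℝ) : |∑ t ∈ S, f t| ≤ N f :=
  Real.abs_le_sqrt (seg_sq_le_Q hS f)

lemma N_add_le (f g : T →₀ ℝ) : N (f + g) ≤ N f + N g := by
  apply N_le_of_Q_le (add_nonneg (N_nonneg f) (N_nonneg g))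
  apply Q_le
  intro P
  have h1 := val_le_Q P f
  have h2 := val_le_Q P g
  have h3 := Real.sum_mul_le_sqrt_mul_sqrt P.1 (fun S => ∑ t ∈ S, f t) (fun S => ∑ t ∈ S, g t)
  have h4 : √(val P f) * √(val P g) ≤ N f * N g :=
    mul_le_mul (Real.sqrt_le_sqrt h1) (Real.sqrt_le_sqrt h2) (Real.sqrt_nonneg _) (N_nonneg _)
  have h5 : val P (f + g) = val P f + 2 * (∑ S ∈ P.1, (∑ t ∈ S, f t) * (∑ t ∈ S, g t))
      + val P g := by
    unfold val
    rw [mul_sum, ← sum_add_distrib, ← sum_add_distrib]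
    apply sum_congr rfl
    intro S _
    simp only [Finsupp.add_apply, sum_add_distrib]
    ring
  rw [h5, add_sq, N_sq, N_sq]
  unfold val at h4 h1 h2 ⊢
  linarith

lemma Q_smul_le (c : ℝ) (f : T →₀ ℝ) : Q (c • f) ≤ c ^ 2 * Q f := by
  apply Q_le
  intro P
  have : val P (c • f) = c ^ 2 * val P f := by
    unfold val
    rw [mul_sum]
    apply sum_congr rfl
    intro S _
    simp only [Finsupp.smul_apply, smul_eq_mul, ← mul_sum]
    ring
  rw [this]
  exact mul_le_mul_of_nonneg_left (val_le_Q P f) (sq_nonneg _)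

lemma N_smul_le (c : ℝ) (f : T →₀ ℝ) : N (c • f) ≤ |c| * N f := by
  apply N_le_of_Q_le (mul_nonneg (abs_nonneg _) (N_nonneg _))
  rw [mul_pow, sq_abs, N_sq]
  exact Q_smul_le c f

lemma N_zero : N (0 : T →₀ ℝ) = 0 := by
  have := N_smul_le (0 : ℝ) (0 : T →₀ ℝ)
  simp only [smul_zero, abs_zero, zero_mul] at this
  exact le_antisymm this (N_nonneg _)

lemma N_neg (f : T →₀ ℝ) : N (-f) = N f := by
  apply le_antisymm
  · simpa using N_smul_le (-1 : ℝ) f
  · simpa using N_smul_le (-1 : ℝ) (-f)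

lemma eq_zero_of_N {f : T →₀ ℝ} (h : N f = 0) : f = 0 := by
  ext t
  have := abs_seg_le_N (isSeg_singleton t) f
  rw [h, sum_singleton] at this
  simpa using this

/-- Lower `ℓ₂` estimate for disjoint convex sets. -/
lemma sum_Q_filter_le {ι : Type*} (s : Finset ι) (A : ι → T → Prop)
    [∀ i, DecidablePred (A i)] (hA : ∀ i ∈ s, Conv (A i))
    (hd : ∀ i ∈ s, ∀ j ∈ s, ∀ t, A i t → A j t → i = j) (f : T →₀ ℝ) :
    ∑ i ∈ s, Q (f.filter (A i)) ≤ Q f := by
  classical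
  apply le_of_forall_pos_le_add
  intro ε hε
  have hε' : 0 < ε / (s.card + 1) := by positivity
  choose P hP using fun i => exists_val_gt (f.filter (A i)) hε'
  have h1 := sum_sq_le_Q (s.sigma fun i => (P i).1) (fun p => p.2.filter (A p.1))
    (by
      intro p hp
      rw [mem_sigma] at hp
      exact ((P p.1).2.1 _ hp.2).filter (hA _ hp.1))
    (by
      rintro ⟨i, S⟩ hp ⟨j, U⟩ hq hpq
      rw [mem_coe, mem_sigma] at hp hq
      simp only [Function.onFun]
      rw [disjoint_left]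
      intro t ht ht'
      rw [mem_filter] at ht ht'
      have hij := hd i hp.1 j hq.1 t ht.2 ht'.2
      subst hij
      have hSU : S ≠ U := fun h => hpq (by rw [h])
      exact disjoint_left.1 ((P i).2.2 hp.2 hq.2 hSU) ht.1 ht'.1) f
  rw [sum_sigma] at h1
  have h2 : ∀ i ∈ s, Q (f.filter (A i)) ≤
      ∑ S ∈ (P i).1, (∑ t ∈ S.filter (A i), f t) ^ 2 + ε / (s.card + 1) := by
    intro i _
    have := hP i
    unfold val at this
    have h3 : ∀ S : Finset T, ∑ t ∈ S, (f.filter (A i)) t = ∑ t ∈ S.filter (A i), f t := by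
      intro S
      rw [sum_filter]
      apply sum_congr rfl
      intro t _
      rw [Finsupp.filter_apply]
    simp only [h3] at this
    linarith
  refine le_trans (sum_le_sum h2) ?_
  rw [sum_add_distrib, sum_const, nsmul_eq_mul]
  have : (s.card : ℝ) * (ε / (s.card + 1)) ≤ ε := by
    rw [← mul_div_assoc, div_le_iff₀ (by positivity)]
    nlinarith
  linarith

lemma Q_filter_le (A : T → Prop) [DecidablePred A] (hA : Conv A) (f : T →₀ ℝ) :
    Q (f.filter A) ≤ Q f := by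
  have := sum_Q_filter_le ({()} : Finset Unit) (fun _ => A) (fun _ _ => hA) (by simp) f
  simpa using this

lemma N_filter_le (A : T → Prop) [DecidablePred A] (hA : Conv A) (f : T →₀ ℝ) :
    N (f.filter A) ≤ N f := Real.sqrt_le_sqrt (Q_filter_le A hA f)

lemma conv_comp (p : ℕ → Prop) : Conv (fun t : T => p (Forest.comp t)) := by
  intro a b c ha _ hac _
  rw [← Forest.comp_eq hac]; exact ha

/-- The set of components met by the support. -/
noncomputable def csupp (f : T →₀ ℝ) : Finset ℕ := f.support.image Forest.comp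

lemma comp_mem_csupp {f : T →₀ ℝ} {t : T} (h : f t ≠ 0) : Forest.comp t ∈ csupp f :=
  mem_image_of_mem _ (Finsupp.mem_support_iff.2 h)

/-- Upper `ℓ₂` estimate for blocks living in different components. -/
lemma Q_sum_le {ι : Type*} (s : Finset ι) (g : ι → T →₀ ℝ)
    (hd : (s : Set ι).PairwiseDisjoint fun i => csupp (g i)) :
    Q (∑ i ∈ s, g i) ≤ ∑ i ∈ s, Q (g i) := by
  classical
  apply Q_le
  intro P
  have h1 : val P (∑ i ∈ s, g i) = ∑ i ∈ s, val P (g i) := by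
    unfold val
    rw [sum_comm]
    apply sum_congr rfl
    intro S hS
    have hseg := P.2.1 S hS
    simp only [Finsupp.finsetSum_apply]
    rw [sum_comm, sq, sum_mul_sum]
    apply sum_congr rfl
    intro i hi
    rw [sum_eq_single i, sq]
    · intro j hj hji
      by_contra hne
      rw [mul_eq_zero, not_or] at hne
      obtain ⟨a, ha, ha'⟩ := exists_ne_zero_of_sum_ne_zero hne.1
      obtain ⟨b, hb, hb'⟩ := exists_ne_zero_of_sum_ne_zero hne.2
      have h1 := comp_mem_csupp ha'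
      have h2 := comp_mem_csupp hb'
      rw [← hseg.comp_eq ha hb] at h2
      exact disjoint_left.1 (hd hi hj hji.symm) h1 h2
    · intro h; exact absurd hi h
  rw [h1]
  exact sum_le_sum fun i _ => val_le_Q P (g i)

lemma Q_le_of_csupp (G : Finset ℕ) (f : T →₀ ℝ) (hf : csupp f ⊆ G) :
    Q f ≤ (G.sup id + 1 : ℕ) * l2 f := by
  apply Q_le_of_card
  intro S hS
  by_cases hne : (S.filter (fun t => f t ≠ 0)).Nonempty
  · obtain ⟨a, ha⟩ := hne
    rw [mem_filter] at ha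
    have h1 := hS.card_le ha.1
    have h2 : Forest.comp a ≤ G.sup id := le_sup (f := id) (hf (comp_mem_csupp ha.2))
    exact le_trans (card_le_card (filter_subset _ _)) (by omega)
  · rw [not_nonempty_iff_eq_empty] at hne
    rw [hne]; simp

lemma Q_le_of_antichain (f : T →₀ ℝ) (hf : ∀ a b, f a ≠ 0 → f b ≠ 0 → a ≤ b → a = b) :
    Q f ≤ l2 f := by
  have := Q_le_of_card (f := f) (m := 1) (by
    intro S hS
    rw [card_le_one]
    intro a ha b hb
    rw [mem_filter] at ha hb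
    rcases hS.1 a ha.1 b hb.1 with h | h
    · exact hf a b ha.2 hb.2 h
    · exact (hf b a hb.2 ha.2 h).symm)
  simpa using this

lemma N_single_le (t : T) : N (Finsupp.single t (1 : ℝ)) ≤ 1 := by
  classical
  apply N_le_of_Q_le zero_le_one
  refine le_trans (Q_le_of_antichain _ ?_) ?_
  · intro a b ha hb _
    rw [Finsupp.single_apply] at ha hb
    have h1 : t = a := by by_contra h; simp [h] at ha
    have h2 : t = b := by by_contra h; simp [h] at hb
    rw [← h1, ← h2]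
  · rw [l2_eq_of_subset _ (Finsupp.support_single_subset)]
    simp

end Vale.Agent.P069
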